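import Mathlib
import Vale.Agent.P097.H407.Hol

/-! # P097, package HART (helper658): local Hartogs machinery, part 1

Joint holomorphy of functions of two complex variables with values in a complex Banach space,
the identity theorem, and the Cauchy integral extension (Hartogs figure). -/

set_option linter.all false

open Set Filter Metric Topology

namespace Vale.Agent.P097.H658

variable {F : Type*} [NormedAddCommGroup F] [NormedSpace ℂ F]

/-- `f` is jointly holomorphic on `S`. -/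
def JH (f : ℂ → ℂ → F) (S : Set (ℂ × ℂ)) : Prop :=
  DifferentiableOn ℂ (fun p : ℂ × ℂ => f p.1 p.2) S

theorem JH.mono {f : ℂ → ℂ → F} {S T : Set (ℂ × ℂ)} (h : JH f S) (hT : T ⊆ S) : JH f T :=
  DifferentiableOn.mono h hT

theorem JH.analytic [CompleteSpace F] {f : ℂ → ℂ → F} {S : Set (ℂ × ℂ)} (hS : IsOpen S)
    (h : JH f S) : AnalyticOnNhd ℂ (fun p : ℂ × ℂ => f p.1 p.2) S :=
  Hol.analyticOnNhd_of_differentiableOn hS h

/-- local characterisation of joint holomorphy -/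
theorem jh_of_local {f : ℂ → ℂ → F} {S : Set (ℂ × ℂ)}
    (h : ∀ p ∈ S, ∃ g : ℂ → ℂ → F, ∃ T : Set (ℂ × ℂ), T ∈ 𝓝 p ∧ JH g T ∧
      ∀ q ∈ T, f q.1 q.2 = g q.1 q.2) : JH f S := by
  intro p hp
  obtain ⟨g, T, hT, hg, hfg⟩ := h p hp
  have h1 : DifferentiableAt ℂ (fun p : ℂ × ℂ => g p.1 p.2) p := DifferentiableOn.differentiableAt hg hT
  refine (h1.congr_of_eventuallyEq ?_).differentiableWithinAt
  filter_upwards [hT] with q hq using hfg q hq

/-- identity theorem -/
theorem jh_eqOn [CompleteSpace F] {f g : ℂ → ℂ → F} {S : Set (ℂ × ℂ)} (hS : IsOpen S)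
    (hc : IsPreconnected S) (hf : JH f S) (hg : JH g S) {p : ℂ × ℂ} (hp : p ∈ S)
    (he : ∀ᶠ q : ℂ × ℂ in 𝓝 p, f q.1 q.2 = g q.1 q.2) : ∀ q ∈ S, f q.1 q.2 = g q.1 q.2 := by
  have := (hf.analytic hS).eqOn_of_preconnected_of_eventuallyEq (hg.analytic hS) hc hp he
  intro q hq
  exact this hq

/-- **Hartogs figure, straight version**: `f` is jointly holomorphic on the open set `O`, which
contains `V × sphere` and `V₀ × closedBall`.  Then `f` extends from `V₀ × ball` to `V × ball`. -/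
theorem hartogs_straight [CompleteSpace F] {f : ℂ → ℂ → F} {O : Set (ℂ × ℂ)} (hO : IsOpen O)
    (hf : JH f O) {V V₀ : Set ℂ} {w₁ : ℂ} {r : ℝ} (hr : 0 < r) (hV : IsOpen V)
    (hs : ∀ t ∈ V, ∀ w ∈ sphere w₁ r, (t, w) ∈ O)
    (hb : ∀ t ∈ V₀, ∀ w ∈ closedBall w₁ r, (t, w) ∈ O) :
    ∃ g : ℂ → ℂ → F, JH g (V ×ˢ ball w₁ r) ∧ ∀ t ∈ V₀, ∀ w ∈ ball w₁ r, g t w = f t w := by
  refine ⟨fun t w => (2 * Real.pi * Complex.I : ℂ)⁻¹ • ∮ z in C(w₁, r), (z - w)⁻¹ • f t z, ?_, ?_⟩
  · rintro ⟨t₀, w₀⟩ ⟨ht₀, hw₀⟩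
    apply DifferentiableAt.differentiableWithinAt
    simp only at ht₀ hw₀
    -- tube lemma
    have hsub : ({t₀} : Set ℂ) ×ˢ sphere w₁ r ⊆ O := by
      rintro ⟨t, w⟩ ⟨ht, hw⟩
      simp only [mem_singleton_iff] at ht
      subst ht
      exact hs t ht₀ w hw
    obtain ⟨U, W, hU, hW, hUt, hWs, hUW⟩ :=
      generalized_tube_lemma isCompact_singleton (isCompact_sphere w₁ r) hO hsub
    have ht₀U : t₀ ∈ U := hUt (mem_singleton _)
    -- separate `w` from the sphere
    obtain ⟨d, hd, hdb⟩ : ∃ d > 0, dist w₀ w₁ + d < r := by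
      have : dist w₀ w₁ < r := hw₀
      exact ⟨(r - dist w₀ w₁) / 2, by linarith, by linarith⟩
    have hopen : IsOpen (U ×ˢ ball w₀ (d / 2)) := hU.prod isOpen_ball
    have hWopen : IsOpen (W ∩ (closedBall w₁ (dist w₀ w₁ + d / 2))ᶜ) :=
      hW.inter isClosed_closedBall.isOpen_compl
    have key := Hol.differentiableOn_circleIntegral (E := ℂ × ℂ) (F := F)
      (G := fun q : (ℂ × ℂ) × ℂ => (q.2 - q.1.2)⁻¹ • f q.1.1 q.2)
      (U := U ×ˢ ball w₀ (d / 2)) (W := W ∩ (closedBall w₁ (dist w₀ w₁ + d / 2))ᶜ)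
      (c := w₁) (R := r) hr.le hopen hWopen ?_ ?_
    · have h0 : ((t₀, w₀) : ℂ × ℂ) ∈ U ×ˢ ball w₀ (d / 2) := ⟨ht₀U, mem_ball_self (half_pos hd)⟩
      have h1 := key.differentiableAt (hopen.mem_nhds h0)
      exact h1.const_smul _
    · intro z hz
      refine ⟨hWs hz, ?_⟩
      simp only [mem_compl_iff, mem_closedBall, not_le]
      rw [mem_sphere] at hz
      linarith
    · apply DifferentiableOn.smul
      · apply DifferentiableOn.inv
        · fun_prop
        · rintro ⟨⟨t, w⟩, z⟩ ⟨⟨ht, hw⟩, hz⟩ h0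
          simp only [mem_compl_iff, mem_closedBall, not_le, mem_inter_iff, mem_ball] at ht hw hz h0
          have hzw : z = w := sub_eq_zero.1 h0
          subst hzw
          have h2 := hz.2
          have h3 : dist z w₁ ≤ dist z w₀ + dist w₀ w₁ := dist_triangle _ _ _
          linarith
      · refine DifferentiableOn.comp (g := fun p : ℂ × ℂ => f p.1 p.2) (t := O) hf
          (f := fun q : (ℂ × ℂ) × ℂ => (q.1.1, q.2)) (by fun_prop) ?_
        rintro ⟨⟨t, w⟩, z⟩ ⟨⟨ht, hw⟩, hz⟩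
        exact hUW ⟨ht, hz.1⟩
  · intro t ht w hw
    have hd : DifferentiableOn ℂ (fun z => f t z) (closedBall w₁ r) := by
      refine DifferentiableOn.comp (g := fun p : ℂ × ℂ => f p.1 p.2) (t := O) hf
          (f := fun z : ℂ => (t, z)) (by fun_prop) ?_
      intro z hz
      exact hb t ht z hz
    have := hd.circleIntegral_sub_inv_smul hw
    simp only
    rw [this, inv_smul_smul₀ Complex.two_pi_I_ne_zero]

end Vale.Agent.P097.H658
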