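import Mathlib
import Vale.Agent.P097.H658.Hart1

/-! # P097, package HART (helper658): the vertical star domain and the disc principle

`Up f c` is the set of points `(t, w)` above the level `Im = c` such that `f`, given near the level
`c`, extends holomorphically to a neighbourhood of the vertical segment from the level `c` up to
`t` (the parameter `w` staying near its value).  `Fx f c` is the (single-valued) extension. -/

set_option linter.all false

open Set Filter Metric Topology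

namespace Vale.Agent.P097.H658

variable {F : Type*} [NormedAddCommGroup F] [NormedSpace ℂ F]

/-- box around the vertical segment from the level `c` to `t` -/
def Box (c : ℝ) (t w : ℂ) (ε : ℝ) : Set (ℂ × ℂ) :=
  {q | |q.1.re - t.re| < ε ∧ ‖q.2 - w‖ < ε ∧ c - ε < q.1.im ∧ q.1.im < t.im + ε}

theorem isOpen_Box (c : ℝ) (t w : ℂ) (ε : ℝ) : IsOpen (Box c t w ε) := by
  have e : Box c t w ε = {q : ℂ × ℂ | |q.1.re - t.re| < ε} ∩ ({q : ℂ × ℂ | ‖q.2 - w‖ < ε} ∩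
      ({q : ℂ × ℂ | c - ε < q.1.im} ∩ {q : ℂ × ℂ | q.1.im < t.im + ε})) := rfl
  rw [e]
  refine IsOpen.inter (isOpen_lt (by fun_prop) (by fun_prop)) ?_
  refine IsOpen.inter (isOpen_lt (by fun_prop) (by fun_prop)) ?_
  refine IsOpen.inter (isOpen_lt (by fun_prop) (by fun_prop)) ?_
  exact isOpen_lt (by fun_prop) (by fun_prop)

theorem cc_lt {a b x y m : ℝ} (ha : 0 ≤ a) (hb : 0 ≤ b) (hab : a + b = 1) (hx : x < m)
    (hy : y < m) : a * x + b * y < m := by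
  rcases ha.lt_or_eq with h | h
  · have h1 := mul_lt_mul_of_pos_left hx h
    have h2 := mul_le_mul_of_nonneg_left hy.le hb
    have h3 : a * m + b * m = m := by rw [← add_mul, hab, one_mul]
    linarith
  · have hb1 : b = 1 := by linarith
    rw [← h, hb1]; linarith

theorem convex_Box (c : ℝ) (t w : ℂ) (ε : ℝ) : Convex ℝ (Box c t w ε) := by
  intro p hp q hq a b ha hb hab
  obtain ⟨p1, p2, p3, p4⟩ := hp
  obtain ⟨q1, q2, q3, q4⟩ := hq
  have hre : (a • p + b • q).1.re = a * p.1.re + b * q.1.re := by simp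
  have him : (a • p + b • q).1.im = a * p.1.im + b * q.1.im := by simp
  have h2 : (a • p + b • q).2 = (a : ℂ) * p.2 + (b : ℂ) * q.2 := by simp
  refine ⟨?_, ?_, ?_, ?_⟩
  · rw [hre]
    have e : a * p.1.re + b * q.1.re - t.re = a * (p.1.re - t.re) + b * (q.1.re - t.re) := by
      linear_combination t.re * hab
    rw [e]
    calc |a * (p.1.re - t.re) + b * (q.1.re - t.re)|
        ≤ |a * (p.1.re - t.re)| + |b * (q.1.re - t.re)| := abs_add_le _ _
      _ = a * |p.1.re - t.re| + b * |q.1.re - t.re| := by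
          rw [abs_mul, abs_mul, abs_of_nonneg ha, abs_of_nonneg hb]
      _ < ε := cc_lt ha hb hab p1 q1
  · rw [h2]
    have e : (a : ℂ) * p.2 + (b : ℂ) * q.2 - w = (a : ℂ) * (p.2 - w) + (b : ℂ) * (q.2 - w) := by
      have : ((a : ℂ) + (b : ℂ)) = 1 := by exact_mod_cast congrArg (fun x : ℝ => (x : ℂ)) hab
      linear_combination w * this
    rw [e]
    calc ‖(a : ℂ) * (p.2 - w) + (b : ℂ) * (q.2 - w)‖
        ≤ ‖(a : ℂ) * (p.2 - w)‖ + ‖(b : ℂ) * (q.2 - w)‖ := norm_add_le _ _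
      _ = a * ‖p.2 - w‖ + b * ‖q.2 - w‖ := by
          rw [norm_mul, norm_mul, Complex.norm_real, Complex.norm_real, Real.norm_of_nonneg ha,
            Real.norm_of_nonneg hb]
      _ < ε := cc_lt ha hb hab p2 q2
  · rw [him]
    have := cc_lt (m := ε - c) ha hb hab (x := -p.1.im) (y := -q.1.im) (by linarith) (by linarith)
    linarith
  · rw [him]; exact cc_lt ha hb hab p4 q4

theorem Box_mono {c : ℝ} {t w : ℂ} {ε ε' : ℝ} (h : ε' ≤ ε) : Box c t w ε' ⊆ Box c t w ε := by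
  rintro q ⟨h1, h2, h3, h4⟩
  exact ⟨h1.trans_le h, h2.trans_le h, by linarith, by linarith⟩

theorem mem_Box {c : ℝ} {t w : ℂ} {ε : ℝ} (hε : 0 < ε) {y : ℝ} (h1 : c ≤ y) (h2 : y ≤ t.im) :
    ((⟨t.re, y⟩ : ℂ), w) ∈ Box c t w ε := by
  refine ⟨by simpa using hε, by simpa using hε, ?_, ?_⟩
  · show c - ε < y
    linarith
  · show y < t.im + ε
    linarith

/-- smaller boxes around the points of a box -/
theorem Box_sub {c : ℝ} {t w : ℂ} {ε : ℝ} {q : ℂ × ℂ} (hq : q ∈ Box c t w ε) :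
    ∃ ε' > 0, ε' ≤ ε ∧ Box c q.1 q.2 ε' ⊆ Box c t w ε := by
  obtain ⟨h1, h2, h3, h4⟩ := hq
  have hε : 0 < ε := lt_of_le_of_lt (abs_nonneg _) h1
  refine ⟨min (min (ε - |q.1.re - t.re|) (ε - ‖q.2 - w‖)) (min ε (t.im + ε - q.1.im)), ?_, ?_, ?_⟩
  · refine lt_min (lt_min ?_ ?_) (lt_min ?_ ?_) <;> linarith
  · exact (min_le_right _ _).trans (min_le_left _ _)
  · rintro p ⟨p1, p2, p3, p4⟩
    simp only [lt_min_iff, sub_lt_iff_lt_add] at p1 p2 p4
    have e1 : min (min (ε - |q.1.re - t.re|) (ε - ‖q.2 - w‖)) (min ε (t.im + ε - q.1.im))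
        ≤ ε - |q.1.re - t.re| := (min_le_left _ _).trans (min_le_left _ _)
    have e2 : min (min (ε - |q.1.re - t.re|) (ε - ‖q.2 - w‖)) (min ε (t.im + ε - q.1.im))
        ≤ ε - ‖q.2 - w‖ := (min_le_left _ _).trans (min_le_right _ _)
    have e3 : min (min (ε - |q.1.re - t.re|) (ε - ‖q.2 - w‖)) (min ε (t.im + ε - q.1.im))
        ≤ ε := (min_le_right _ _).trans (min_le_left _ _)
    have e4 : min (min (ε - |q.1.re - t.re|) (ε - ‖q.2 - w‖)) (min ε (t.im + ε - q.1.im))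
        ≤ t.im + ε - q.1.im := (min_le_right _ _).trans (min_le_right _ _)
    refine ⟨?_, ?_, ?_, ?_⟩
    · have : |p.1.re - t.re| ≤ |p.1.re - q.1.re| + |q.1.re - t.re| := abs_sub_le _ _ _
      linarith [p1.1.1]
    · have : ‖p.2 - w‖ ≤ ‖p.2 - q.2‖ + ‖q.2 - w‖ := norm_sub_le_norm_sub_add_norm_sub _ _ _
      linarith [p2.1.2]
    · linarith
    · linarith

/-- the vertical star domain of `f` above the level `c` -/
def Up (f : ℂ → ℂ → F) (c : ℝ) : Set (ℂ × ℂ) :=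
  {p | c < p.1.im ∧ ∃ ε > 0, ∃ g : ℂ → ℂ → F, JH g (Box c p.1 p.2 ε) ∧
    ∀ q ∈ Box c p.1 p.2 ε, q.1.im < c + ε → g q.1 q.2 = f q.1 q.2}

/-- uniqueness of the local extensions -/
theorem ext_unique [CompleteSpace F] {f : ℂ → ℂ → F} {c : ℝ} {t w t' w' : ℂ} {ε ε' : ℝ}
    (ht : c < t.im) (ht' : c < t'.im) (hε : 0 < ε) (hε' : 0 < ε') {g g' : ℂ → ℂ → F}
    (hg : JH g (Box c t w ε)) (hg' : JH g' (Box c t' w' ε'))
    (h : ∀ q ∈ Box c t w ε, q.1.im < c + ε → g q.1 q.2 = f q.1 q.2)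
    (h' : ∀ q ∈ Box c t' w' ε', q.1.im < c + ε' → g' q.1 q.2 = f q.1 q.2) :
    ∀ q ∈ Box c t w ε ∩ Box c t' w' ε', g q.1 q.2 = g' q.1 q.2 := by
  intro q hq
  have hO : IsOpen (Box c t w ε ∩ Box c t' w' ε') := (isOpen_Box _ _ _ _).inter (isOpen_Box _ _ _ _)
  have hC : IsPreconnected (Box c t w ε ∩ Box c t' w' ε') :=
    ((convex_Box _ _ _ _).inter (convex_Box _ _ _ _)).isPreconnected
  -- the base point
  set p : ℂ × ℂ := ((⟨q.1.re, c⟩ : ℂ), q.2) with hp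
  have hpb : p ∈ Box c t w ε ∩ Box c t' w' ε' := by
    obtain ⟨⟨a1, a2, a3, a4⟩, ⟨b1, b2, b3, b4⟩⟩ := hq
    refine ⟨⟨a1, a2, ?_, ?_⟩, ⟨b1, b2, ?_, ?_⟩⟩ <;> simp only [hp] <;> linarith
  refine jh_eqOn hO hC (hg.mono inter_subset_left) (hg'.mono inter_subset_right) hpb ?_ q hq
  have hopen : IsOpen ({z : ℂ × ℂ | z.1.im < c + min ε ε'} ∩ (Box c t w ε ∩ Box c t' w' ε')) :=
    (isOpen_lt (by fun_prop) (by fun_prop)).inter hO
  have hpm : p ∈ ({z : ℂ × ℂ | z.1.im < c + min ε ε'} ∩ (Box c t w ε ∩ Box c t' w' ε')) := by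
    refine ⟨?_, hpb⟩
    have : 0 < min ε ε' := lt_min hε hε'
    simp only [hp, mem_setOf_eq]; linarith
  filter_upwards [hopen.mem_nhds hpm] with z hz
  have hz1 : z.1.im < c + min ε ε' := hz.1
  rw [h z hz.2.1 (hz1.trans_le (by linarith [min_le_left ε ε'])),
    h' z hz.2.2 (hz1.trans_le (by linarith [min_le_right ε ε']))]

/-- all points of the box are in `Up` -/
theorem mem_Up_of_Box {f : ℂ → ℂ → F} {c : ℝ} {t w : ℂ} {ε : ℝ} {g : ℂ → ℂ → F}
    (hg : JH g (Box c t w ε)) (h : ∀ q ∈ Box c t w ε, q.1.im < c + ε → g q.1 q.2 = f q.1 q.2)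
    {q : ℂ × ℂ} (hq : q ∈ Box c t w ε) (hqc : c < q.1.im) : q ∈ Up f c := by
  obtain ⟨ε', hε', hle, hsub⟩ := Box_sub hq
  refine ⟨hqc, ε', hε', g, hg.mono hsub, fun p hp hpc => h p (hsub hp) (by linarith)⟩

theorem isOpen_Up (f : ℂ → ℂ → F) (c : ℝ) : IsOpen (Up f c) := by
  rw [isOpen_iff_mem_nhds]
  rintro ⟨t, w⟩ ⟨htc, ε, hε, g, hg, h⟩
  simp only at htc hg h
  have hopen : IsOpen (Box c t w ε ∩ {z : ℂ × ℂ | c < z.1.im}) :=
    (isOpen_Box _ _ _ _).inter (isOpen_lt (by fun_prop) (by fun_prop))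
  refine mem_of_superset (hopen.mem_nhds ⟨mem_Box (t := t) hε htc.le le_rfl, htc⟩) ?_
  intro q hq
  exact mem_Up_of_Box hg h hq.1 hq.2

/-- vertical star property -/
theorem Up_star {f : ℂ → ℂ → F} {c : ℝ} {t w : ℂ} (h : (t, w) ∈ Up f c) {y : ℝ} (hy : c < y)
    (hyt : y ≤ t.im) : ((⟨t.re, y⟩ : ℂ), w) ∈ Up f c := by
  obtain ⟨htc, ε, hε, g, hg, h⟩ := h
  exact mem_Up_of_Box hg h (mem_Box hε hy.le hyt) hy

/-- the extension of `f` to the vertical star domain -/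
noncomputable def Fx (f : ℂ → ℂ → F) (c : ℝ) (t w : ℂ) : F := by
  classical
  exact if h : ((t, w) : ℂ × ℂ) ∈ Up f c then h.2.choose_spec.2.choose t w else f t w

theorem Fx_eq [CompleteSpace F] {f : ℂ → ℂ → F} {c : ℝ} {t w : ℂ} {ε : ℝ} (htc : c < t.im)
    (hε : 0 < ε) {g : ℂ → ℂ → F}
    (hg : JH g (Box c t w ε)) (h : ∀ q ∈ Box c t w ε, q.1.im < c + ε → g q.1 q.2 = f q.1 q.2)
    {q : ℂ × ℂ} (hq : q ∈ Box c t w ε) (hqc : c < q.1.im) : Fx f c q.1 q.2 = g q.1 q.2 := by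
  have hU : ((q.1, q.2) : ℂ × ℂ) ∈ Up f c := mem_Up_of_Box hg h hq hqc
  unfold Fx
  rw [dif_pos hU]
  have s1 := hU.2.choose_spec.1
  have s2 := hU.2.choose_spec.2.choose_spec.1
  have s3 := hU.2.choose_spec.2.choose_spec.2
  refine ext_unique (q := q) ?_ htc s1 hε s2 hg s3 h ?_
  · exact hqc
  · exact ⟨mem_Box (t := q.1) s1 hqc.le le_rfl, hq⟩

theorem JH_Fx [CompleteSpace F] (f : ℂ → ℂ → F) (c : ℝ) : JH (Fx f c) (Up f c) := by
  refine jh_of_local ?_
  rintro ⟨t, w⟩ ⟨htc, ε, hε, g, hg, h⟩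
  simp only at htc hg h
  have hopen : IsOpen (Box c t w ε ∩ {z : ℂ × ℂ | c < z.1.im}) :=
    (isOpen_Box _ _ _ _).inter (isOpen_lt (by fun_prop) (by fun_prop))
  refine ⟨g, _, hopen.mem_nhds ⟨mem_Box (t := t) hε htc.le le_rfl, htc⟩, ?_, ?_⟩
  · exact hg.mono inter_subset_left
  · intro q hq
    exact Fx_eq htc hε hg h hq.1 hq.2

/-- near the level `c` the extension is `f` -/
theorem Fx_base [CompleteSpace F] {f : ℂ → ℂ → F} {c : ℝ} {t w : ℂ} (h : (t, w) ∈ Up f c) :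
    ∃ ε > 0, ∀ q ∈ Box c t w ε, c < q.1.im → q.1.im < c + ε → Fx f c q.1 q.2 = f q.1 q.2 := by
  obtain ⟨htc, ε, hε, g, hg, h⟩ := h
  refine ⟨ε, hε, fun q hq hqc hqe => ?_⟩
  rw [Fx_eq htc hε hg h hq hqc, h q hq hqe]

/-- compactness: a box inside an open set containing the vertical segment -/
theorem exists_Box {c : ℝ} {t w : ℂ} (htc : c ≤ t.im) {O : Set (ℂ × ℂ)} (hO : IsOpen O)
    (hseg : ∀ y : ℝ, c ≤ y → y ≤ t.im → ((⟨t.re, y⟩ : ℂ), w) ∈ O) :
    ∃ ε > 0, Box c t w ε ⊆ O := by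
  set K : Set (ℂ × ℂ) := (fun y : ℝ => ((⟨t.re, y⟩ : ℂ), w)) '' Icc c t.im with hK
  have hcont : Continuous (fun y : ℝ => (((⟨t.re, y⟩ : ℂ), w) : ℂ × ℂ)) := by
    have : (fun y : ℝ => (((⟨t.re, y⟩ : ℂ), w) : ℂ × ℂ)) =
        fun y : ℝ => (((t.re : ℂ) + (y : ℂ) * Complex.I, w) : ℂ × ℂ) := by
      ext y
      · exact Complex.mk_eq_add_mul_I _ _
      · rfl
    rw [this]
    fun_prop
  have hKc : IsCompact K := isCompact_Icc.image hcont
  have hKO : K ⊆ O := by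
    rintro _ ⟨y, hy, rfl⟩
    exact hseg y hy.1 hy.2
  obtain ⟨δ, hδ, hδO⟩ := hKc.exists_thickening_subset_open hO hKO
  refine ⟨δ / 4, by positivity, fun q hq => hδO ?_⟩
  obtain ⟨h1, h2, h3, h4⟩ := hq
  rw [mem_thickening_iff]
  refine ⟨((⟨t.re, max c (min q.1.im t.im)⟩ : ℂ), w), ⟨max c (min q.1.im t.im), ⟨?_, ?_⟩, rfl⟩, ?_⟩
  · exact le_max_left _ _
  · exact max_le htc (min_le_right _ _)
  · rw [Prod.dist_eq, max_lt_iff]
    constructor
    · rw [dist_eq_norm]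
      refine lt_of_le_of_lt (Complex.norm_le_abs_re_add_abs_im _) ?_
      simp only [Complex.sub_re, Complex.sub_im]
      have : |q.1.im - max c (min q.1.im t.im)| ≤ δ / 4 := by
        rw [abs_le]
        rcases le_total q.1.im t.im with h | h
        · rw [min_eq_left h]
          rcases le_total c q.1.im with h' | h'
          · rw [max_eq_right h']; constructor <;> linarith
          · rw [max_eq_left h']; constructor <;> linarith
        · rw [min_eq_right h, max_eq_right htc]; constructor <;> linarith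
      linarith
    · rw [dist_eq_norm]; simp only; linarith

/-- **Uniqueness / recognition**: a holomorphic function near the vertical segment which agrees with
`f` near the bottom shows that the point is in `Up` and computes `Fx`. -/
theorem mem_Up_of_seg [CompleteSpace F] {f h : ℂ → ℂ → F} {c : ℝ} {t w : ℂ} (htc : c < t.im)
    {O : Set (ℂ × ℂ)} (hO : IsOpen O)
    (hseg : ∀ y : ℝ, c ≤ y → y ≤ t.im → ((⟨t.re, y⟩ : ℂ), w) ∈ O) (hh : JH h O)
    (he : ∀ᶠ q : ℂ × ℂ in 𝓝 ((⟨t.re, c⟩ : ℂ), w), h q.1 q.2 = f q.1 q.2) :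
    (t, w) ∈ Up f c ∧ Fx f c t w = h t w := by
  obtain ⟨ε, hε, hεO⟩ := exists_Box htc.le hO hseg
  obtain ⟨δ, hδ, hδe⟩ := Metric.eventually_nhds_iff_ball.1 he
  set ε' := min ε (δ / 4) with hε'
  have hε'0 : 0 < ε' := lt_min hε (by positivity)
  have hg : JH h (Box c t w ε') := hh.mono ((Box_mono (min_le_left _ _)).trans hεO)
  have hf : ∀ q ∈ Box c t w ε', q.1.im < c + ε' → h q.1 q.2 = f q.1 q.2 := by
    rintro q ⟨h1, h2, h3, h4⟩ h5
    apply hδe
    have e : ε' ≤ δ / 4 := min_le_right _ _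
    rw [mem_ball, Prod.dist_eq, max_lt_iff]
    constructor
    · rw [dist_eq_norm]
      refine lt_of_le_of_lt (Complex.norm_le_abs_re_add_abs_im _) ?_
      simp only [Complex.sub_re, Complex.sub_im]
      have : |q.1.im - c| ≤ δ / 4 := by rw [abs_le]; constructor <;> linarith
      linarith
    · rw [dist_eq_norm]; simp only; linarith
  have hmem : ((t, w) : ℂ × ℂ) ∈ Box c t w ε' := mem_Box (t := t) hε'0 htc.le le_rfl
  exact ⟨mem_Up_of_Box hg hf hmem htc, Fx_eq htc hε'0 hg hf hmem htc⟩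

end Vale.Agent.P097.H658
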