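import Mathlib
import Vale.Agent.P097.H658.Hart2

/-! # P097, package HART (helper658): the disc principle -/

set_option linter.all false

open Set Filter Metric Topology

namespace Vale.Agent.P097.H658

variable {F : Type*} [NormedAddCommGroup F] [NormedSpace ℂ F]

/-- **Disc principle.**  Let `w ↦ (φ w, w)` be a holomorphic disc over `closedBall w₁ r` whose
boundary lies in the vertical star domain, and such that the whole disc, moved down by `b ≥ 0`, lies
in the vertical star domain.  Then the disc lies in the vertical star domain. -/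
theorem disc_principle [CompleteSpace F] {f : ℂ → ℂ → F} {c : ℝ} {φ : ℂ → ℂ} {w₁ : ℂ} {r R b : ℝ}
    (hr : 0 < r) (hrR : r < R) (hb : 0 ≤ b) (hφ : DifferentiableOn ℂ φ (ball w₁ R))
    (hs : ∀ w ∈ sphere w₁ r, (φ w, w) ∈ Up f c)
    (hB : ∀ w ∈ closedBall w₁ r, (φ w - b * Complex.I, w) ∈ Up f c) :
    ∀ w ∈ closedBall w₁ r, (φ w, w) ∈ Up f c := by
  classical
  -- only interior points matter
  intro w₀ hw₀
  rcases (mem_closedBall.1 hw₀).lt_or_eq with hw₀b | hw₀s
  swap
  · exact hs w₀ hw₀s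
  -- the straightened function
  set ft : ℂ → ℂ → F := fun τ w => Fx f c (φ w + τ) w with hft
  set O : Set (ℂ × ℂ) := {p | p.2 ∈ ball w₁ R ∧ (φ p.2 + p.1, p.2) ∈ Up f c} with hOdef
  have hcont : ContinuousOn (fun p : ℂ × ℂ => ((φ p.2 + p.1, p.2) : ℂ × ℂ)) (univ ×ˢ ball w₁ R) := by
    refine ContinuousOn.prodMk (ContinuousOn.add ?_ continuousOn_fst) continuousOn_snd
    exact hφ.continuousOn.comp continuousOn_snd fun p hp => hp.2
  have hO : IsOpen O := by
    have := hcont.isOpen_inter_preimage (isOpen_univ.prod isOpen_ball) (isOpen_Up f c)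
    convert this using 1
    ext p
    simp [hOdef]
  have hfO : JH ft O := by
    have h1 : JH (Fx f c) (Up f c) := JH_Fx f c
    refine DifferentiableOn.comp (g := fun p : ℂ × ℂ => Fx f c p.1 p.2) (t := Up f c) h1
      (f := fun p : ℂ × ℂ => (φ p.2 + p.1, p.2)) ?_ fun p hp => hp.2
    refine DifferentiableOn.prodMk (DifferentiableOn.add ?_ differentiableOn_fst)
      differentiableOn_snd
    exact hφ.comp differentiableOn_snd fun p hp => hp.1
  have hcR : closedBall w₁ r ⊆ ball w₁ R := closedBall_subset_ball hrR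
  -- points of the vertical segment over the sphere
  have hIm : ∀ (z : ℂ) (s : ℝ), (z + s * Complex.I).im = z.im + s := fun z s => by simp
  have hRe : ∀ (z : ℂ) (s : ℝ), (z + s * Complex.I).re = z.re := fun z s => by simp
  have hseg : ∀ w ∈ sphere w₁ r, ∀ s : ℝ, -b ≤ s → s ≤ 0 → ((s * Complex.I : ℂ), w) ∈ O := by
    intro w hw s hs1 hs2
    have hwc : w ∈ closedBall w₁ r := sphere_subset_closedBall hw
    refine ⟨hcR hwc, ?_⟩
    have h1 := hs w hw
    have h2 := hB w hwc
    have h3 : c < (φ w - b * Complex.I).im := h2.1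
    have h4 : (φ w - b * Complex.I).im = (φ w).im - b := by simp
    have h5 := Up_star h1 (y := (φ w).im + s) (by linarith) (by linarith)
    have h6 : (⟨(φ w).re, (φ w).im + s⟩ : ℂ) = φ w + s * Complex.I := by
      apply Complex.ext <;> simp
    rw [h6] at h5
    exact h5
  -- compact sets
  have hK1 : IsCompact (((fun s : ℝ => (s * Complex.I : ℂ)) '' Icc (-b) 0) ×ˢ sphere w₁ r) :=
    (isCompact_Icc.image (by fun_prop)).prod (isCompact_sphere w₁ r)
  have hK2 : IsCompact (({(-b : ℝ) * Complex.I} : Set ℂ) ×ˢ closedBall w₁ r) :=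
    isCompact_singleton.prod (isCompact_closedBall w₁ r)
  obtain ⟨δ₁, hδ₁, hδ₁O⟩ := hK1.exists_thickening_subset_open hO (by
    rintro ⟨τ, w⟩ ⟨⟨s, hs, rfl⟩, hw⟩
    exact hseg w hw s hs.1 hs.2)
  obtain ⟨δ₂, hδ₂, hδ₂O⟩ := hK2.exists_thickening_subset_open hO (by
    rintro ⟨τ, w⟩ ⟨hτ, hw⟩
    simp only [mem_singleton_iff] at hτ
    subst hτ
    refine ⟨hcR hw, ?_⟩
    have h2 := hB w hw
    have e : φ w - b * Complex.I = φ w + ((-b : ℝ) : ℂ) * Complex.I := by push_cast; ring
    rw [e] at h2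
    exact h2)
  set δ := min δ₁ δ₂ / 2 with hδdef
  have hδ : 0 < δ := by positivity
  have hδ1 : 2 * δ ≤ δ₁ := by rw [hδdef]; linarith [min_le_left δ₁ δ₂]
  have hδ2 : 2 * δ ≤ δ₂ := by rw [hδdef]; linarith [min_le_right δ₁ δ₂]
  set V : Set ℂ := {τ | |τ.re| < δ ∧ -b - δ < τ.im ∧ τ.im < δ} with hVdef
  set V₀ : Set ℂ := {τ | |τ.re| < δ ∧ -b - δ < τ.im ∧ τ.im < -b + δ} with hV₀def
  have hV : IsOpen V := by
    have e : V = {τ : ℂ | |τ.re| < δ} ∩ ({τ : ℂ | -b - δ < τ.im} ∩ {τ : ℂ | τ.im < δ}) := rfl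
    rw [e]
    refine (isOpen_lt (by fun_prop) (by fun_prop)).inter ?_
    exact (isOpen_lt (by fun_prop) (by fun_prop)).inter (isOpen_lt (by fun_prop) (by fun_prop))
  have hVs : ∀ τ ∈ V, ∀ w ∈ sphere w₁ r, (τ, w) ∈ O := by
    rintro τ ⟨t1, t2, t3⟩ w hw
    apply hδ₁O
    rw [mem_thickening_iff]
    refine ⟨(((max (-b) (min τ.im 0) : ℝ) * Complex.I : ℂ), w),
      ⟨⟨max (-b) (min τ.im 0), ⟨le_max_left _ _, max_le (by linarith) (min_le_right _ _)⟩, rfl⟩,
        hw⟩, ?_⟩
    rw [Prod.dist_eq, max_lt_iff]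
    refine ⟨?_, by simpa using hδ₁⟩
    rw [dist_eq_norm]
    refine lt_of_le_of_lt (Complex.norm_le_abs_re_add_abs_im _) ?_
    have h1 : (τ - ((max (-b) (min τ.im 0) : ℝ) * Complex.I : ℂ)).re = τ.re := by simp
    have h2 : (τ - ((max (-b) (min τ.im 0) : ℝ) * Complex.I : ℂ)).im =
        τ.im - max (-b) (min τ.im 0) := by simp
    simp only [h1, h2]
    have : |τ.im - max (-b) (min τ.im 0)| ≤ δ := by
      rw [abs_le]
      rcases le_total τ.im 0 with h | h
      · rw [min_eq_left h]
        rcases le_total (-b) τ.im with h' | h'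
        · rw [max_eq_right h']; constructor <;> linarith
        · rw [max_eq_left h']; constructor <;> linarith
      · rw [min_eq_right h, max_eq_right (by linarith)]; constructor <;> linarith
    linarith
  have hV₀b : ∀ τ ∈ V₀, ∀ w ∈ closedBall w₁ r, (τ, w) ∈ O := by
    rintro τ ⟨t1, t2, t3⟩ w hw
    apply hδ₂O
    rw [mem_thickening_iff]
    refine ⟨(((-b : ℝ) : ℂ) * Complex.I, w), ⟨rfl, hw⟩, ?_⟩
    rw [Prod.dist_eq, max_lt_iff]
    refine ⟨?_, by simpa using hδ₂⟩
    rw [dist_eq_norm]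
    refine lt_of_le_of_lt (Complex.norm_le_abs_re_add_abs_im _) ?_
    have h1 : (τ - ((-b : ℝ) : ℂ) * Complex.I).re = τ.re := by simp
    have h2 : (τ - ((-b : ℝ) : ℂ) * Complex.I).im = τ.im + b := by simp
    simp only [h1, h2]
    have : |τ.im + b| ≤ δ := by rw [abs_le]; constructor <;> linarith
    linarith
  obtain ⟨g, hg, hgf⟩ := hartogs_straight hO hfO hr hV hVs hV₀b
  -- back to the original coordinates
  have hBw := hB w₀ hw₀
  obtain ⟨hcb, ε, hε, gb, hgb, hgbf⟩ := hBw
  have hbase : (φ w₀ - b * Complex.I).im = (φ w₀).im - b := by simp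
  have hbasere : (φ w₀ - b * Complex.I).re = (φ w₀).re := by simp
  simp only at hcb hgb hgbf
  rw [hbase] at hcb
  have hct : c < (φ w₀).im := by linarith
  -- continuity of `φ` at `w₀`
  have hcφ : ContinuousAt φ w₀ :=
    (hφ.continuousOn).continuousAt (isOpen_ball.mem_nhds (hcR hw₀))
  obtain ⟨κ, hκ, hκφ⟩ := Metric.continuousAt_iff.1 hcφ (δ / 4) (by positivity)
  set η := min (min (min ε κ) (min (δ / 4) (r - dist w₀ w₁))) ((φ w₀).im - b - c) with hηdef
  have hη : 0 < η := by
    refine lt_min (lt_min (lt_min hε hκ) (lt_min (by positivity) ?_)) ?_ <;> linarith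
  have hηc : η ≤ (φ w₀).im - b - c := min_le_right _ _
  have hη1 : η ≤ ε := (min_le_left _ _).trans ((min_le_left _ _).trans (min_le_left _ _))
  have hη2 : η ≤ κ := (min_le_left _ _).trans ((min_le_left _ _).trans (min_le_right _ _))
  have hη3 : η ≤ δ / 4 := (min_le_left _ _).trans ((min_le_right _ _).trans (min_le_left _ _))
  have hη4 : η ≤ r - dist w₀ w₁ :=
    (min_le_left _ _).trans ((min_le_right _ _).trans (min_le_right _ _))
  set yb : ℝ := (φ w₀).im - b with hyb
  -- points of the big box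
  have hφw : ∀ w : ℂ, ‖w - w₀‖ < η → |(φ w).re - (φ w₀).re| < δ / 4 ∧
      |(φ w).im - (φ w₀).im| < δ / 4 ∧ w ∈ ball w₁ r := by
    intro w hw
    have h1 : dist (φ w) (φ w₀) < δ / 4 := hκφ (by rw [dist_eq_norm]; linarith)
    rw [dist_eq_norm] at h1
    refine ⟨?_, ?_, ?_⟩
    · have := Complex.abs_re_le_norm (φ w - φ w₀)
      rw [Complex.sub_re] at this; linarith
    · have := Complex.abs_im_le_norm (φ w - φ w₀)
      rw [Complex.sub_im] at this; linarith
    · rw [mem_ball]
      have := dist_triangle w w₀ w₁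
      rw [dist_eq_norm w w₀] at this
      linarith
  set g2 : ℂ → ℂ → F := fun t w => g (t - φ w) w with hg2
  set h : ℂ → ℂ → F := fun t w => if t.im < yb then gb t w else g2 t w with hh
  -- on the overlap both agree
  have hover : ∀ q ∈ Box c (φ w₀) w₀ η, yb - η < q.1.im → q.1.im < yb + η →
      gb q.1 q.2 = g2 q.1 q.2 := by
    rintro q ⟨q1, q2, q3, q4⟩ q5 q6
    obtain ⟨k1, k2, k3⟩ := hφw q.2 q2
    have hqc : c < q.1.im := by linarith
    have hqB : q ∈ Box c (φ w₀ - b * Complex.I) w₀ ε := by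
      refine ⟨by rw [hbasere]; linarith, by linarith, by linarith, ?_⟩
      rw [hbase]; linarith
    have e1 : Fx f c q.1 q.2 = gb q.1 q.2 :=
      Fx_eq (by rw [hbase]; exact hcb) hε hgb hgbf hqB hqc
    have hτ : q.1 - φ q.2 ∈ V₀ := by
      rw [abs_lt] at k1 k2 q1
      refine ⟨?_, ?_, ?_⟩
      · rw [Complex.sub_re, abs_lt]; constructor <;> linarith
      · rw [Complex.sub_im]; linarith
      · rw [Complex.sub_im]; linarith
    have e2 := hgf _ hτ q.2 k3
    rw [← e1]
    simp only [hg2, e2, hft, add_sub_cancel]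
  -- the glued function
  refine ⟨hct, η, hη, h, ?_, ?_⟩
  · refine jh_of_local ?_
    intro q hq
    simp only at hq
    by_cases hqy : q.1.im < yb + η
    · refine ⟨gb, Box c (φ w₀) w₀ η ∩ {z : ℂ × ℂ | z.1.im < yb + η}, ?_, ?_, ?_⟩
      · exact ((isOpen_Box _ _ _ _).inter (isOpen_lt (by fun_prop) (by fun_prop))).mem_nhds
          ⟨hq, hqy⟩
      · refine hgb.mono ?_
        rintro z ⟨⟨z1, z2, z3, z4⟩, z5⟩
        have z5' : z.1.im < yb + η := z5
        refine ⟨by rw [hbasere]; linarith, by linarith, by linarith, ?_⟩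
        rw [hbase]; linarith
      · rintro z ⟨hz, z5⟩
        have z5' : z.1.im < yb + η := z5
        simp only [hh]
        split_ifs with hlt
        · rfl
        · exact (hover z hz (by linarith) z5').symm
    · have hqy' : yb + η ≤ q.1.im := not_lt.1 hqy
      refine ⟨g2, Box c (φ w₀) w₀ η ∩ {z : ℂ × ℂ | yb - η < z.1.im}, ?_, ?_, ?_⟩
      · refine ((isOpen_Box _ _ _ _).inter (isOpen_lt (by fun_prop) (by fun_prop))).mem_nhds
          ⟨hq, ?_⟩
        show yb - η < q.1.im
        linarith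
      · have hdφ : DifferentiableOn ℂ (fun z : ℂ × ℂ => φ z.2)
            (Box c (φ w₀) w₀ η ∩ {z : ℂ × ℂ | yb - η < z.1.im}) := by
          refine hφ.comp differentiableOn_snd fun z hz => ?_
          have := (hφw z.2 hz.1.2.1).2.2
          exact ball_subset_ball hrR.le this
        refine DifferentiableOn.comp (g := fun p : ℂ × ℂ => g p.1 p.2) (t := V ×ˢ ball w₁ r) hg
          (f := fun z : ℂ × ℂ => (z.1 - φ z.2, z.2))
          (DifferentiableOn.prodMk (differentiableOn_fst.sub hdφ) differentiableOn_snd) ?_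
        rintro z ⟨⟨z1, z2, z3, z4⟩, z5⟩
        have z5' : yb - η < z.1.im := z5
        obtain ⟨k1, k2, k3⟩ := hφw z.2 z2
        rw [abs_lt] at k1 k2 z1
        refine ⟨⟨?_, ?_, ?_⟩, k3⟩
        · rw [Complex.sub_re, abs_lt]; constructor <;> linarith
        · rw [Complex.sub_im]; linarith
        · rw [Complex.sub_im]; linarith
      · rintro z ⟨hz, z5⟩
        have z5' : yb - η < z.1.im := z5
        simp only [hh]
        split_ifs with hlt
        · exact hover z hz z5' (by linarith)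
        · rfl
  · intro q hq hqc
    simp only at hq
    have hlt : q.1.im < yb := by linarith
    obtain ⟨q1, q2, q3, q4⟩ := hq
    have hqB : q ∈ Box c (φ w₀ - b * Complex.I) w₀ ε := by
      refine ⟨by rw [hbasere]; linarith, by linarith, by linarith, ?_⟩
      rw [hbase]; linarith
    have : h q.1 q.2 = gb q.1 q.2 := by simp only [hh]; rw [if_pos hlt]
    rw [this]
    exact hgbf q hqB (by linarith)

end Vale.Agent.P097.H658
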